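import Vale.Agent.P032.S5.H360.Match

/-!
# P032: every colour of a point with at least four colours is unbroken with at least two others

Frame: `Irr U T` together with minimality `hmin` : no proper subset of `T z` is sufficient near `z`
when `4 ≤ |T z|`.  A pair `{a, j}` is broken at `z` if `T q = {a, j}` for some `q` with
`dist q z = 1`.
-/

open Set Filter Topology Metric

noncomputable section

namespace Vale.Agent.P032.Six

variable {k : ℕ} {U : Fin k → Set ℂ} {T : ℂ → Set (Fin k)}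

namespace Irr

/-- a colour of the palette is a sufficient colour: it is in the open set off `XX`, and in the
closure on `XX` -/
theorem suf_mem (h : Irr U T) {w : ℂ} {i : Fin k} (hi : i ∈ T w) :
    w ∈ U i ∨ (w ∈ XX U ∧ i ∈ Pal U w) := by
  by_cases hw : w ∈ XX U
  · exact Or.inr ⟨hw, h.sub w hi⟩
  · exact Or.inl (h.off w hw i hi)

/-- a point of the unit circle about `w` with palette inside `{a, j}`, where `a`, `j` are colours
of `w`, has palette `{a, j}` -/
theorem pair_of_sub (h : Irr U T) {w q : ℂ} {a j : Fin k} (hq : dist q w = 1)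
    (ha : a ∈ Pal U w) (hj : j ∈ Pal U w) (hsub : T q ⊆ {a, j}) : T q = {a, j} := by
  refine Subset.antisymm hsub ?_
  rintro m (rfl | rfl)
  · by_contra hcon
    have h1 : T q ⊆ {j} := by
      intro m' hm'
      rcases hsub hm' with h2 | h2
      · exact absurd (h2 ▸ hm') hcon
      · exact h2
    exact h.mx.notMem' (h.mem_of_single h1) hq hj
  · by_contra hcon
    have h1 : T q ⊆ {a} := by
      intro m' hm'
      rcases hsub hm' with h2 | h2
      · exact h2
      · exact absurd (h2 ▸ hm') hcon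
    exact h.mx.notMem' (h.mem_of_single h1) hq ha

/-- **Degree lemma.** -/
theorem degree (h : Irr U T)
    (hmin : ∀ z, 4 ≤ (T z).ncard → ∀ s, s ⊆ T z → s ≠ T z →
      ¬ ∀ᶠ w in 𝓝 z, ∃ i ∈ s, w ∈ U i ∨ (w ∈ XX U ∧ i ∈ Pal U w)) {z : ℂ}
    (h4 : 4 ≤ (T z).ncard) {a d : Fin k} (ha : a ∈ T z) (hd : d ∈ T z) (had : a ≠ d)
    (hbr : ∀ j ∈ T z, j ≠ a → j ≠ d → ∃ q, dist q z = 1 ∧ T q = {a, j}) : False := by
  obtain ⟨n, hn⟩ : ∃ n, (T z).ncard = n := ⟨_, rfl⟩
  induction n using Nat.strong_induction_on generalizing z d with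
  | _ n ih =>
    -- the broken arcs
    have hbr' : ∀ j, ∃ q, j ∈ T z → j ≠ a → j ≠ d → dist q z = 1 ∧ T q = {a, j} := by
      intro j
      by_cases h1 : j ∈ T z ∧ j ≠ a ∧ j ≠ d
      · obtain ⟨q, hq⟩ := hbr j h1.1 h1.2.1 h1.2.2
        exact ⟨q, fun _ _ _ => hq⟩
      · exact ⟨0, fun h2 h3 h4 => absurd ⟨h2, h3, h4⟩ h1⟩
    choose q hq using hbr'
    -- near `z`
    have hnear : ∀ᶠ w in 𝓝 z, ∀ j, j ∈ T z → j ≠ a → j ≠ d →
        T (q j + (w - z)) ⊆ {a, j} ∧ (({a, j} : Set (Fin k)) ⊆ T w → 4 ≤ (T w).ncard) := by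
      rw [eventually_all]
      intro j
      by_cases h1 : j ∈ T z ∧ j ≠ a ∧ j ≠ d
      · obtain ⟨hq1, hq2⟩ := hq j h1.1 h1.2.1 h1.2.2
        have ht : Tendsto (fun w => q j + (w - z)) (𝓝 z) (𝓝 (q j)) := by
          have hc : Continuous fun w : ℂ => q j + (w - z) := by fun_prop
          have := hc.tendsto z
          simpa using this
        filter_upwards [ht.eventually (h.nhd (q j)), h.no_layer hq1] with w h2 h3 _ _ _
        rw [hq2] at h2 h3
        exact ⟨h2, h3⟩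
      · exact Eventually.of_forall fun w h2 h3 h4 => absurd ⟨h2, h3, h4⟩ h1
    -- the colour `a` meets other colours only at points with `d`
    have hs : ∀ᶠ w in 𝓝 z, ∀ b ∈ T w, a ∈ T w → b = a ∨ d ∈ T w := by
      filter_upwards [h.nhd z, hnear] with w h1 h2 b hb haw
      by_contra hcon
      push Not at hcon
      obtain ⟨hba, hdw⟩ := hcon
      have hbd : b ≠ d := fun h5 => hdw (h5 ▸ hb)
      obtain ⟨-, h3⟩ := h2 b (h1 hb) hba hbd
      have h4w : 4 ≤ (T w).ncard := h3 (by rintro m (rfl | rfl) <;> assumption)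
      have hlt : (T w).ncard < (T z).ncard :=
        Set.ncard_lt_ncard ⟨h1, fun h5 => hdw (h5 hd)⟩ (Set.toFinite _)
      refine ih _ (hn ▸ hlt) h4w haw hb (Ne.symm hba) (fun j hj hja hjb => ?_) rfl
      have hjd : j ≠ d := fun h5 => hdw (h5 ▸ hj)
      obtain ⟨h5, -⟩ := h2 j (h1 hj) hja hjd
      have hqw : dist (q j + (w - z)) w = 1 := by
        have h6 := (hq j (h1 hj) hja hjd).1
        rw [dist_eq_norm] at h6 ⊢
        rw [← h6]; congr 1; ring
      exact ⟨q j + (w - z), hqw, h.pair_of_sub hqw (h.sub w haw) (h.sub w hj) h5⟩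
    -- a third colour
    obtain ⟨j, hj, hja, hjd⟩ : ∃ j ∈ T z, j ≠ a ∧ j ≠ d := by
      by_contra hcon
      push Not at hcon
      have h1 : T z ⊆ {a, d} := by
        intro m hm
        by_cases hma : m = a
        · exact Or.inl hma
        · exact Or.inr (hcon m hm hma)
      have h2 := Set.ncard_le_ncard h1 (Set.toFinite _)
      have h3 := Set.ncard_insert_le a ({d} : Set (Fin k))
      rw [Set.ncard_singleton] at h3
      omega
    obtain ⟨hqj, hTj⟩ := hq j hj hja hjd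
    have hJ : ∀ᶠ p in 𝓝[sphere z 1] (q j), a ∈ Pal U p := by
      filter_upwards [mem_nhdsWithin_of_mem_nhds (h.nhd (q j)), self_mem_nhdsWithin] with p h1 h2
      rw [hTj] at h1
      have h3 := h.pair_of_sub h2 (h.sub z ha) (h.sub z hj) h1
      exact h.sub p (by rw [h3]; simp)
    -- conclusion
    refine hmin z h4 (T z \ {a}) sdiff_subset (fun h5 => ?_) ?_
    · have h6 : a ∈ T z \ {a} := by rw [h5]; exact ha
      exact h6.2 rfl
    filter_upwards [h.nhd z, h.sole (h.sub z hd) hs hqj hJ] with w h1 h2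
    by_cases hcase : ∃ i ∈ T w, i ≠ a
    · obtain ⟨i, hi, hia⟩ := hcase
      exact ⟨i, ⟨h1 hi, hia⟩, h.suf_mem hi⟩
    · push Not at hcase
      obtain ⟨i, hi⟩ := h.ne w
      have h3 : T w = {a} := by
        refine Subset.antisymm (fun m hm => hcase m hm) ?_
        rintro m rfl
        exact hcase i hi ▸ hi
      exact ⟨d, ⟨hd, had.symm⟩, Or.inl (h2 h3)⟩

/-- **Two contacts.** Every colour of a point with at least four colours is unbroken with at least
two other colours. -/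
theorem two_contacts (h : Irr U T)
    (hmin : ∀ z, 4 ≤ (T z).ncard → ∀ s, s ⊆ T z → s ≠ T z →
      ¬ ∀ᶠ w in 𝓝 z, ∃ i ∈ s, w ∈ U i ∨ (w ∈ XX U ∧ i ∈ Pal U w)) {z : ℂ}
    (h4 : 4 ≤ (T z).ncard) {a : Fin k} (ha : a ∈ T z) :
    ∃ d e, d ∈ T z ∧ e ∈ T z ∧ d ≠ a ∧ e ≠ a ∧ d ≠ e ∧
      (∀ q, dist q z = 1 → T q ≠ {a, d}) ∧ ∀ q, dist q z = 1 → T q ≠ {a, e} := by
  -- another colour
  have hex : ∀ d, ∃ e, e ∈ T z ∧ e ≠ a ∧ e ≠ d := by
    intro d
    by_contra hcon
    push Not at hcon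
    have h1 : T z ⊆ {a, d} := by
      intro m hm
      by_cases hma : m = a
      · exact Or.inl hma
      · exact Or.inr (hcon m hm hma)
    have h2 := Set.ncard_le_ncard h1 (Set.toFinite _)
    have h3 := Set.ncard_insert_le a ({d} : Set (Fin k))
    rw [Set.ncard_singleton] at h3
    omega
  obtain ⟨d0, hd0, hd0a, -⟩ := hex a
  -- a first unbroken colour
  obtain ⟨d, hd, hda, hdq⟩ : ∃ d, d ∈ T z ∧ d ≠ a ∧ ∀ q, dist q z = 1 → T q ≠ {a, d} := by
    by_contra hcon
    push Not at hcon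
    exact h.degree hmin h4 ha hd0 hd0a.symm fun j hj hja _ => hcon j hj hja
  obtain ⟨e, he, hea, hed, heq⟩ : ∃ e, e ∈ T z ∧ e ≠ a ∧ e ≠ d ∧
      ∀ q, dist q z = 1 → T q ≠ {a, e} := by
    by_contra hcon
    push Not at hcon
    exact h.degree hmin h4 ha hd hda.symm fun j hj hja hjd => hcon j hj hja hjd
  exact ⟨d, e, hd, he, hda, hea, hed.symm, hdq, heq⟩

/-- **The broken pairs of a four-coloured point are disjoint.** -/
theorem pairs_disjoint (h : Irr U T)
    (hmin : ∀ z, 4 ≤ (T z).ncard → ∀ s, s ⊆ T z → s ≠ T z →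
      ¬ ∀ᶠ w in 𝓝 z, ∃ i ∈ s, w ∈ U i ∨ (w ∈ XX U ∧ i ∈ Pal U w)) {z q1 q2 : ℂ}
    (h4 : (T z).ncard = 4) (hq1 : dist q1 z = 1) (hq2 : dist q2 z = 1) (hs1 : T q1 ⊆ T z)
    (hs2 : T q2 ⊆ T z) (hc1 : (T q1).ncard = 2) (hc2 : (T q2).ncard = 2) :
    T q1 = T q2 ∨ Disjoint (T q1) (T q2) := by
  by_contra hcon
  rw [not_or] at hcon
  obtain ⟨hne, hdis⟩ := hcon
  obtain ⟨a, ha1, ha2⟩ := Set.not_disjoint_iff.1 hdis
  have key : ∀ S : Set (Fin k), S.ncard = 2 → a ∈ S → ∃ b, b ≠ a ∧ S = {a, b} := by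
    intro S hS haS
    obtain ⟨x, y, hxy, rfl⟩ := Set.ncard_eq_two.1 hS
    rcases haS with rfl | rfl
    · exact ⟨y, hxy.symm, rfl⟩
    · exact ⟨x, hxy, Set.pair_comm _ _⟩
  obtain ⟨b, hba, hb⟩ := key _ hc1 ha1
  obtain ⟨c, hca, hc⟩ := key _ hc2 ha2
  have hbc : b ≠ c := by
    rintro rfl
    exact hne (hb.trans hc.symm)
  have hbz : b ∈ T z := hs1 (by rw [hb]; simp)
  have hcz : c ∈ T z := hs2 (by rw [hc]; simp)
  have haz : a ∈ T z := hs1 ha1
  obtain ⟨d, e, hd, he, hda, hea, hde, hdq, heq⟩ := h.two_contacts hmin (by omega) haz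
  have hdb : d ≠ b := by rintro rfl; exact hdq q1 hq1 hb
  have hdc : d ≠ c := by rintro rfl; exact hdq q2 hq2 hc
  have heb : e ≠ b := by rintro rfl; exact heq q1 hq1 hb
  have hec : e ≠ c := by rintro rfl; exact heq q2 hq2 hc
  have h5 : ({a, b, c, d, e} : Set (Fin k)) ⊆ T z := by
    rintro m (rfl | rfl | rfl | rfl | rfl) <;> assumption
  have h6 := Set.ncard_le_ncard h5 (Set.toFinite _)
  have h7 : ({a, b, c, d, e} : Set (Fin k)).ncard = 5 := by
    rw [Set.ncard_insert_of_notMem (by simp [hba.symm, hca.symm, hda.symm, hea.symm]),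
      Set.ncard_insert_of_notMem (by simp [hbc, hdb.symm, heb.symm]),
      Set.ncard_insert_of_notMem (by simp [hdc.symm, hec.symm]), Set.ncard_pair hde]
  omega

end Irr

end Vale.Agent.P032.Six
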