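import Vale.Agent.P032.S5.H483.Irr

/-!
# P032: the broken pairs of a four-coloured point are disjoint

`Irr.sole` : if near `z` the colour `a` meets no colour except `d` (points with `d` allowed), and
some arc of the unit circle about `z` carries `a`, then near `z` every point with palette `{a}`
lies in `U d`.
`Irr.matching` : `T z = {a, b, c, d}` and `{a, b}`, `{a, c}` both palettes of points of the unit
circle about `z`: then `{b, c, d}` is sufficient near `z`.
-/

open Set Filter Topology Metric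

noncomputable section

namespace Vale.Agent.P032.Six

variable {k : ℕ} {U : Fin k → Set ℂ} {T : ℂ → Set (Fin k)}

/-- sweeping: a point of the unit circle about `q` which is not `z` or its antipode has none of
the colours carried by the unit circle about `z` near `q` -/
theorem Mx.sweep_notMem (h : Mx U) {z q w : ℂ} (hqz : dist q z = 1) {P : Set (Fin k)}
    (hJ : ∀ᶠ q' in 𝓝[sphere z 1] q, P ⊆ Pal U q') (hwq : dist w q = 1) (hne : z ≠ w)
    (h2 : z + w ≠ 2 * q) {i : Fin k} (hi : i ∈ P) : i ∉ Pal U w := by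
  intro hwi
  obtain ⟨t1, ht1⟩ := exists_cis (u := q - z) (by rw [← dist_eq_norm]; exact hqz)
  have hqt : z + cis t1 = q := by rw [← ht1]; ring
  have hcr2 : cr (cis t1) (z + cis t1 - w) ≠ 0 := by
    rw [hqt, ← ht1]
    exact cr_ne (z := q) (c := z) (q := w) hqz (by rw [dist_comm]; exact hwq) hne h2
  obtain ⟨v, hv, hvs⟩ := mem_nhdsWithin_iff_exists_mem_nhds_inter.1 hJ
  have hc2 : ContinuousAt (fun t => z + cis t) t1 :=
    (continuous_const.add continuous_cis).continuousAt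
  have hpre : (fun t => z + cis t) ⁻¹' v ∈ 𝓝 t1 := hc2.preimage_mem_nhds (by rw [hqt]; exact hv)
  obtain ⟨η2, hη2, hball2⟩ := Metric.mem_nhds_iff.1 hpre
  have hsweep := crossing (c := z) (q₀ := w) (t0 := t1)
    (by rw [hqt, dist_comm]; exact hwq) hcr2 hη2
  have hwi' : w ∈ closure (U i) := hwi
  obtain ⟨w', hw', hw'U⟩ := mem_closure_iff_nhds.1 hwi' _ hsweep
  obtain ⟨t', ht', ht'1⟩ := hw'
  have hmem : z + cis t' ∈ v ∩ sphere z 1 :=
    ⟨hball2 (by rw [mem_ball, Real.dist_eq]; exact ht'), dist_add_cis z t'⟩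
  have hi' : i ∈ Pal U (z + cis t') := hvs hmem hi
  exact h.notMem' hw'U (by rw [dist_comm]; exact ht'1) hi'

/-- for `g` near `y`, `|z - y| = 1`, the unit circle about `g` contains near `z` a point `w` which
is `z` or has no colour of `P` -/
theorem Mx.cross_pt (h : Mx U) {z p y : ℂ} (hp : dist p z = 1) {P : Set (Fin k)}
    (hJ : ∀ᶠ q in 𝓝[sphere z 1] p, P ⊆ Pal U q) (hzy : dist z y = 1) {N : Set ℂ}
    (hN : N ∈ 𝓝 z) :
    ∀ᶠ g in 𝓝 y, ∃ w ∈ N, dist w g = 1 ∧ (w = z ∨ ∀ i ∈ P, i ∉ Pal U w) := by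
  obtain ⟨q, hq, hqz, hqy, hqy2, hJq⟩ := exists_generic (y := y) hp hJ
  have hJq : ∀ᶠ q' in 𝓝[sphere z 1] q, P ⊆ Pal U q' := hJq
  have hzq : dist z q = 1 := by rw [dist_comm]; exact hqz
  obtain ⟨θ, hθ⟩ := exists_cis (u := z - q) (by rw [← dist_eq_norm]; exact hzq)
  have hzθ : q + cis θ = z := by rw [← hθ]; ring
  obtain ⟨r, hr, hrp⟩ := Metric.mem_nhds_iff.1 hN
  have hc : ContinuousAt (fun t => q + cis t) θ :=
    (continuous_const.add continuous_cis).continuousAt
  obtain ⟨η, hη, hηr⟩ := Metric.continuousAt_iff.1 hc (min r 1) (lt_min hr one_pos)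
  have hcr : cr (cis θ) (q + cis θ - y) ≠ 0 := by
    rw [hzθ, ← hθ]
    exact cr_ne hzq hzy hqy hqy2
  have hcross := crossing (c := q) (q₀ := y) (t0 := θ) (by rw [hzθ]; exact hzy) hcr hη
  filter_upwards [hcross] with g hg
  obtain ⟨t, htθ, hgt⟩ := hg
  have hwz : dist (q + cis t) z < min r 1 := by
    have := hηr (x := t) (by rw [Real.dist_eq]; exact htθ)
    simp only [hzθ] at this
    exact this
  refine ⟨q + cis t, hrp (lt_of_lt_of_le hwz (min_le_left _ _)), hgt, ?_⟩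
  by_cases hwne : q + cis t = z
  · exact Or.inl hwne
  · right
    intro i hi
    refine h.sweep_notMem hqz hJq (dist_add_cis q t) (Ne.symm hwne) ?_ hi
    intro h2
    have h3 : q + cis t - z = 2 * (q - z) := by linear_combination h2
    have h4 : dist (q + cis t) z = 2 := by
      rw [dist_eq_norm, h3, norm_mul, ← dist_eq_norm, hqz]; simp
    have h5 := lt_of_lt_of_le hwz (min_le_right _ _)
    linarith

/-- two points of a unit circle near `z` are joined on the circle near `z` -/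
theorem circle_join {z y : ℂ} (hzy : dist z y = 1) {r : ℝ} (hr : 0 < r) :
    ∃ δ > 0, ∀ g w1 w2 : ℂ, dist g y < δ → dist w1 z < δ → dist w2 z < δ → dist w1 g = 1 →
      dist w2 g = 1 → ∃ C : Set ℂ, IsPreconnected C ∧ w1 ∈ C ∧ w2 ∈ C ∧
        ∀ x ∈ C, dist x g = 1 ∧ dist x z < r := by
  refine ⟨min (r / 6) (1 / 8), lt_min (by positivity) (by norm_num), ?_⟩
  intro g w1 w2 hg h1 h2 hg1 hg2
  set δ := min (r / 6) (1 / 8) with hδ
  have hδ1 : δ ≤ r / 6 := min_le_left _ _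
  have hδ2 : δ ≤ 1 / 8 := min_le_right _ _
  have hu0 : ‖z - y‖ = 1 := by rw [← dist_eq_norm]; exact hzy
  have m0 : ‖g - y‖ < δ := by rw [← dist_eq_norm]; exact hg
  have m1 : ‖w1 - z‖ < δ := by rw [← dist_eq_norm]; exact h1
  have m2 : ‖w2 - z‖ < δ := by rw [← dist_eq_norm]; exact h2
  have hv1 : ‖(w1 - g) - (z - y)‖ < 2 * δ := by
    have e : (w1 - g) - (z - y) = (w1 - z) - (g - y) := by ring
    rw [e]
    have := norm_sub_le (w1 - z) (g - y)
    linarith
  have hv2 : ‖(w2 - g) - (z - y)‖ < 2 * δ := by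
    have e : (w2 - g) - (z - y) = (w2 - z) - (g - y) := by ring
    rw [e]
    have := norm_sub_le (w2 - z) (g - y)
    linarith
  let v : ℝ → ℂ := fun s => ((1 - s : ℝ) : ℂ) * (w1 - g) + (s : ℂ) * (w2 - g)
  have hv : ∀ s ∈ Icc (0 : ℝ) 1, ‖v s - (z - y)‖ ≤ 2 * δ := by
    intro s hs
    have e : v s - (z - y) = ((1 - s : ℝ) : ℂ) * ((w1 - g) - (z - y)) +
        (s : ℂ) * ((w2 - g) - (z - y)) := by
      simp only [v]; push_cast; ring
    rw [e]
    have n1 := norm_add_le (((1 - s : ℝ) : ℂ) * ((w1 - g) - (z - y)))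
      ((s : ℂ) * ((w2 - g) - (z - y)))
    rw [norm_mul, norm_mul, Complex.norm_real, Complex.norm_real,
      Real.norm_of_nonneg (by linarith [hs.2]), Real.norm_of_nonneg hs.1] at n1
    nlinarith [hs.1, hs.2]
  have hvn : ∀ s ∈ Icc (0 : ℝ) 1, |‖v s‖ - 1| ≤ 2 * δ := by
    intro s hs
    have := abs_norm_sub_norm_le (v s) (z - y)
    rw [hu0] at this
    exact this.trans (hv s hs)
  have hvpos : ∀ s ∈ Icc (0 : ℝ) 1, (0 : ℝ) < ‖v s‖ := by
    intro s hs
    have := (abs_le.1 (hvn s hs)).1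
    linarith
  have hcont : ContinuousOn (fun s : ℝ => g + ((‖v s‖⁻¹ : ℝ) : ℂ) * v s) (Icc 0 1) := by
    have hvc : Continuous v := by
      simp only [v]
      fun_prop
    refine continuousOn_const.add ?_
    refine ContinuousOn.mul ?_ hvc.continuousOn
    refine Complex.continuous_ofReal.comp_continuousOn ?_
    exact (hvc.norm.continuousOn).inv₀ fun s hs => (hvpos s hs).ne'
  refine ⟨(fun s : ℝ => g + ((‖v s‖⁻¹ : ℝ) : ℂ) * v s) '' Icc 0 1,
    isPreconnected_Icc.image _ hcont, ⟨0, by simp, ?_⟩, ⟨1, by simp, ?_⟩, ?_⟩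
  · have e0 : v 0 = w1 - g := by simp [v]
    simp only [e0]
    rw [← dist_eq_norm, hg1]
    simp
  · have e1 : v 1 = w2 - g := by simp [v]
    simp only [e1]
    rw [← dist_eq_norm, hg2]
    simp
  · rintro _ ⟨s, hs, rfl⟩
    have hp := hvpos s hs
    constructor
    · rw [dist_eq_norm, add_sub_cancel_left, norm_mul, Complex.norm_real,
        Real.norm_of_nonneg (inv_nonneg.2 hp.le)]
      exact inv_mul_cancel₀ hp.ne'
    · have e : g + ((‖v s‖⁻¹ : ℝ) : ℂ) * v s - z =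
          (g - y) + (((‖v s‖⁻¹ - 1 : ℝ) : ℂ) * v s) + (v s - (z - y)) := by
        push_cast; ring
      have n2 : ‖((‖v s‖⁻¹ - 1 : ℝ) : ℂ) * v s‖ ≤ 2 * δ := by
        rw [norm_mul, Complex.norm_real, Real.norm_eq_abs]
        have : |‖v s‖⁻¹ - 1| * ‖v s‖ = |‖v s‖ - 1| := by
          have e2 : |‖v s‖⁻¹ - 1| * ‖v s‖ = |(‖v s‖⁻¹ - 1) * ‖v s‖| := by
            rw [abs_mul, abs_of_pos hp]
          rw [e2, sub_mul, inv_mul_cancel₀ hp.ne', one_mul, abs_sub_comm]
        rw [this]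
        exact hvn s hs
      have n3 := norm_add₃_le (a := g - y) (b := ((‖v s‖⁻¹ - 1 : ℝ) : ℂ) * v s)
        (c := v s - (z - y))
      rw [dist_eq_norm, e]
      have n4 : ‖g - y‖ < δ := by rw [← dist_eq_norm]; exact hg
      have := hv s hs
      linarith

namespace Irr

/-- if near `z` the colour `a` meets other colours only at points with `d`, then the unit circle
about a point `w` near `z` with `a ∈ T w` contains no point of `U d` -/
theorem sole_aux (h : Irr U T) {z p : ℂ} {a d : Fin k} (hdz : d ∈ Pal U z)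
    (hs : ∀ᶠ x in 𝓝 z, ∀ b ∈ T x, a ∈ T x → b = a ∨ d ∈ T x) (hp : dist p z = 1)
    (hJ : ∀ᶠ q in 𝓝[sphere z 1] p, a ∈ Pal U q) :
    ∀ᶠ w in 𝓝 z, a ∈ T w → ∀ g, dist w g = 1 → g ∉ U d := by
  obtain ⟨r, hr, hsr⟩ := Metric.eventually_nhds_iff.1 hs
  let S : Set (ℂ × ℂ) := {x | dist x.1 x.2 = 1 → x.2 ∈ U d → a ∉ T x.1}
  have key : ∀ y ∈ sphere z 1, S ∈ 𝓝 z ×ˢ 𝓝 y := by
    intro y hy
    have hzy : dist z y = 1 := by rw [dist_comm]; exact hy
    obtain ⟨δ, hδ, hjoin⟩ := circle_join hzy hr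
    have hcr := h.mx.cross_pt (P := {a}) hp (hJ.mono fun q hq => by simpa using hq) hzy
      (ball_mem_nhds z hδ)
    have e1 : ball z δ ∈ 𝓝 z := ball_mem_nhds z hδ
    have e2 : ball y δ ∩ {g | ∃ w ∈ ball z δ, dist w g = 1 ∧ (w = z ∨ ∀ i ∈ ({a} : Set (Fin k)),
        i ∉ Pal U w)} ∈ 𝓝 y := inter_mem (ball_mem_nhds y hδ) hcr
    refine mem_of_superset (prod_mem_prod e1 e2) ?_
    rintro ⟨w1, g⟩ ⟨hw1, hgy, w2, hw2, hw2g, hw2'⟩ hw1g hgU ha
    simp only at hw1 hgy hw2g hw1g hgU ha hw2'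
    have hw2z : w2 ≠ z := by
      rintro rfl
      exact h.mx.notMem' hgU (by rw [dist_comm]; exact hw2g) hdz
    have haw2 : a ∉ T w2 := fun hcon => by
      rcases hw2' with h1 | h1
      · exact hw2z h1
      · exact h1 a rfl (h.sub w2 hcon)
    obtain ⟨C, hC, hw1C, hw2C, hCx⟩ := hjoin g w1 w2 hgy hw1 hw2 hw1g hw2g
    have hB : IsClosed (⋃ b ∈ {b : Fin k | b ≠ a}, {x | b ∈ T x}) :=
      (Set.toFinite _).isClosed_biUnion fun b _ => h.closed b
    obtain ⟨x, hxC, hxA, hxB⟩ := isPreconnected_closed_iff.1 hC {x | a ∈ T x} _ (h.closed a) hB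
      (fun x _ => by
        obtain ⟨b, hb⟩ := h.ne x
        by_cases hba : b = a
        · exact Or.inl (hba ▸ hb)
        · exact Or.inr (mem_iUnion₂.2 ⟨b, hba, hb⟩)) ⟨w1, hw1C, ha⟩ ⟨w2, hw2C, by
        obtain ⟨b, hb⟩ := h.ne w2
        exact mem_iUnion₂.2 ⟨b, fun hba => haw2 (hba ▸ hb), hb⟩⟩
    obtain ⟨b, hba, hb⟩ := mem_iUnion₂.1 hxB
    have hxg := hCx x hxC
    rcases hsr hxg.2 b hb hxA with h1 | h1
    · exact hba h1
    · exact h.mx.notMem' hgU (by rw [dist_comm]; exact hxg.1) (h.sub x h1)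
  have hall : S ∈ 𝓝 z ×ˢ 𝓝ˢ (sphere z 1) :=
    (isCompact_sphere z 1).mem_prod_nhdsSet_of_forall key
  obtain ⟨V1, hV1, V2, hV2, hVS⟩ := mem_prod_iff.1 hall
  obtain ⟨O, hO, hSO, hOV⟩ := mem_nhdsSet_iff_exists.1 hV2
  obtain ⟨δ, hδ, hδO⟩ := (isCompact_sphere z 1).exists_thickening_subset_open hO hSO
  filter_upwards [hV1, ball_mem_nhds z hδ] with w hw1 hw2 ha g hg hgU
  have hgO : g ∈ V2 := by
    refine hOV (hδO (mem_thickening_iff.2 ⟨g - w + z, ?_, ?_⟩))
    · rw [mem_sphere, dist_eq_norm, add_sub_cancel_right, ← dist_eq_norm, dist_comm]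
      exact hg
    · rw [dist_eq_norm]
      have e : g - (g - w + z) = w - z := by ring
      rw [e, ← dist_eq_norm]
      exact hw2
  exact hVS (mk_mem_prod hw1 hgO) hg hgU ha

/-- **sole neighbour**: if near `z` the colour `a` meets other colours only at points with `d`,
then near `z` the pure points of colour `a` lie in `U d` -/
theorem sole (h : Irr U T) {z p : ℂ} {a d : Fin k} (hdz : d ∈ Pal U z)
    (hs : ∀ᶠ x in 𝓝 z, ∀ b ∈ T x, a ∈ T x → b = a ∨ d ∈ T x) (hp : dist p z = 1)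
    (hJ : ∀ᶠ q in 𝓝[sphere z 1] p, a ∈ Pal U q) :
    ∀ᶠ w in 𝓝 z, T w = {a} → w ∈ U d := by
  filter_upwards [(h.sole_aux hdz hs hp hJ).eventually_nhds] with w hw hTw
  have hw' : ∀ᶠ w' in 𝓝 w, ∀ g, dist w' g = 1 → g ∉ U d := by
    filter_upwards [hw, h.nhd w] with w' h1 h2
    refine h1 ?_
    obtain ⟨b, hb⟩ := h.ne w'
    have := h2 hb
    rw [hTw] at this
    have hba : b = a := this
    exact hba ▸ hb
  refine h.max d w fun y hy hwy => ?_
  have ht : Tendsto (fun g => w + (g - y)) (𝓝 y) (𝓝 w) := by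
    have hc : Continuous fun g : ℂ => w + (g - y) := by fun_prop
    have := hc.tendsto y
    simpa using this
  obtain ⟨g, hgU, hg⟩ := ((mem_closure_iff_frequently.1 hy).and_eventually
    (ht.eventually hw')).exists
  refine hg g ?_ hgU
  rw [dist_eq_norm] at hwy ⊢
  rw [← hwy]
  congr 1
  ring

/-- **The broken pairs of a four-coloured point are disjoint**, otherwise three of its colours
suffice near it. -/
theorem matching (h : Irr U T) {z q1 q2 : ℂ} {a b c d : Fin k} (hab : a ≠ b) (hac : a ≠ c)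
    (had : a ≠ d) (hz : T z = {a, b, c, d}) (hz4 : (T z).ncard = 4) (hq1 : dist q1 z = 1)
    (hT1 : T q1 = {a, b}) (hq2 : dist q2 z = 1) (hT2 : T q2 = {a, c}) :
    ∀ᶠ w in 𝓝 z, ∃ i ∈ ({b, c, d} : Set (Fin k)), i ∈ T w ∨ w ∈ U i := by
  have hsubP : ∀ i ∈ ({a, b, c, d} : Set (Fin k)), i ∈ Pal U z := fun i hi =>
    h.sub z (by rw [hz]; exact hi)
  have hs : ∀ᶠ x in 𝓝 z, ∀ i ∈ T x, a ∈ T x → i = a ∨ d ∈ T x := by
    filter_upwards [h.nhd z, h.no_layer hq1, h.no_layer hq2] with x h1 h2 h3 i hi ha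
    have hfull : 4 ≤ (T x).ncard → d ∈ T x := by
      intro h4
      have h5 : T x = T z := Set.eq_of_subset_of_ncard_le h1 (by rw [hz4]; exact h4)
        (Set.toFinite _)
      rw [h5, hz]; simp
    have hi' := h1 hi
    rw [hz] at hi'
    rcases hi' with rfl | rfl | rfl | rfl
    · exact Or.inl rfl
    · right
      refine hfull (h2 ?_)
      rw [hT1]
      rintro m (rfl | rfl)
      · exact ha
      · exact hi
    · right
      refine hfull (h3 ?_)
      rw [hT2]
      rintro m (rfl | rfl)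
      · exact ha
      · exact hi
    · exact Or.inr hi
  have hJ : ∀ᶠ q in 𝓝[sphere z 1] q1, a ∈ Pal U q := by
    filter_upwards [mem_nhdsWithin_of_mem_nhds (h.nhd q1), self_mem_nhdsWithin] with q h1 h2
    by_contra hcon
    have h3 : T q ⊆ {b} := by
      intro m hm
      have h4 := h1 hm
      rw [hT1] at h4
      rcases h4 with rfl | h4
      · exact absurd (h.sub q hm) hcon
      · exact h4
    exact h.mx.notMem' (h.mem_of_single h3) h2 (hsubP b (by simp))
  filter_upwards [h.nhd z, h.sole (hsubP d (by simp)) hs hq1 hJ] with w h1 h2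
  by_cases hcase : ∃ i ∈ T w, i ≠ a
  · obtain ⟨i, hi, hia⟩ := hcase
    have h3 := h1 hi
    rw [hz] at h3
    rcases h3 with h3 | h3
    · exact absurd h3 hia
    · exact ⟨i, h3, Or.inl hi⟩
  · push Not at hcase
    obtain ⟨i, hi⟩ := h.ne w
    have h3 : T w = {a} := by
      refine Subset.antisymm (fun m hm => hcase m hm) ?_
      rintro m rfl
      exact hcase i hi ▸ hi
    exact ⟨d, by simp, Or.inr (h2 h3)⟩

end Irr

end Vale.Agent.P032.Six
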