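import Vale.Agent.P032.S5.H360.Solid

/-!
# P032: antipodal letters and shadows

`Irr.shadow` : a partner `y0` of `z` for the colour `g` with `g ∉ T y0` is a limit of points which
lie in `U g` and in `U i`, for some `i ∈ T y0`.
`Irr.no_fill` : in this case two antipodal letters together with `{g, i}` never exhaust `T z`.
-/

open Set Filter Topology Metric

noncomputable section

namespace Vale.Agent.P032.Six

variable {k : ℕ} {U : Fin k → Set ℂ} {T : ℂ → Set (Fin k)}

namespace Irr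

/-- the ray perpendicular to a letter has none of its colours -/
theorem ray_free (h : Irr U T) {z y : ℂ} {P : Set (Fin k)} (hy : dist y z = 1)
    (hJ : ∀ᶠ q in 𝓝[sphere z 1] y, P ⊆ Pal U q) :
    ∀ᶠ t : ℝ in 𝓝 0, t ≠ 0 → ∀ i ∈ P, i ∉ Pal U (z + t * (Complex.I * (y - z))) := by
  set n : ℂ := y - z with hn
  have hn1 : ‖n‖ = 1 := by rw [hn, ← dist_eq_norm]; exact hy
  have hc : Continuous fun t : ℝ => z + slv 1 n t 0 := by
    have h1 := continuous_slv 1 n
    have h2 : Continuous fun t : ℝ => ((t, 0) : ℝ × ℝ) := by fun_prop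
    exact continuous_const.add (h1.comp h2)
  have hreg : ∀ᶠ t : ℝ in 𝓝 0, t ^ 2 / 4 ≤ 1 / (1 + (0 : ℝ) ^ 2) := by
    have h1 : Continuous fun t : ℝ => t ^ 2 / 4 := by fun_prop
    have h3 := h1.tendsto 0
    have := h3.eventually_lt (tendsto_const_nhds (x := (1 / (1 + (0 : ℝ) ^ 2) : ℝ)))
      (by norm_num)
    exact this.mono fun t ht => ht.le
  have hfar : ∀ᶠ t : ℝ in 𝓝 0, dist (z + t * (Complex.I * n)) z < 1 := by
    have h1 : Continuous fun t : ℝ => dist (z + t * (Complex.I * n)) z := by fun_prop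
    exact h1.continuousAt.eventually_lt continuousAt_const (by simp)
  have tg : Tendsto (fun t : ℝ => z + slv 1 n t 0) (𝓝 0) (𝓝[sphere z 1] y) := by
    refine tendsto_nhdsWithin_iff.2 ⟨?_, ?_⟩
    · have := hc.tendsto 0
      simp only [slv_zero] at this
      have e : z + ((1 : ℝ) : ℂ) * n = y := by rw [hn]; push_cast; ring
      rwa [e] at this
    · filter_upwards [hreg] with t ht
      rw [mem_sphere, dist_eq_norm, add_sub_cancel_left]
      exact norm_slv (by norm_num) hn1 ht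
  filter_upwards [hreg, hfar, tg.eventually (eventually_eventually_nhdsWithin.2 hJ)]
    with t h1 h2 h3 ht i hi
  have hwz : z + t * (Complex.I * n) ≠ z := by
    intro hcon
    have h4 : ‖(t : ℂ) * (Complex.I * n)‖ = 0 := by
      have : (t : ℂ) * (Complex.I * n) = 0 := by linear_combination hcon
      rw [this, norm_zero]
    rw [norm_mul, norm_mul, Complex.norm_I, hn1, Complex.norm_real, one_mul, mul_one] at h4
    exact ht (norm_eq_zero.1 h4)
  refine h.mx.sweep_notMem (z := z) (q := z + slv 1 n t 0) (w := z + t * (Complex.I * n)) ?_ h3 ?_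
    (Ne.symm hwz) ?_ hi
  · rw [dist_eq_norm, add_sub_cancel_left]
    exact norm_slv (by norm_num) hn1 h1
  · rw [dist_eq_norm]
    have e : z + t * (Complex.I * n) - (z + slv 1 n t 0) =
        (t : ℂ) * ((Complex.I + ((0 : ℝ) : ℂ)) * n) - slv 1 n t 0 := by
      push_cast; ring
    rw [e]
    exact norm_slv_sub (by norm_num) hn1 h1
  · intro h5
    have h6 : z + t * (Complex.I * n) - z = 2 * slv 1 n t 0 := by linear_combination h5
    have h7 : dist (z + t * (Complex.I * n)) z = 2 := by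
      rw [dist_eq_norm, h6, norm_mul, norm_slv (by norm_num) hn1 h1]; simp
    linarith

/-- colours on the line perpendicular to two antipodal letters -/
theorem line_sub (h : Irr U T) {z y1 y2 : ℂ} {P1 P2 R : Set (Fin k)}
    (hy1 : dist y1 z = 1) (hy2 : y1 + y2 = 2 * z)
    (hJ1 : ∀ᶠ q in 𝓝[sphere z 1] y1, P1 ⊆ Pal U q)
    (hJ2 : ∀ᶠ q in 𝓝[sphere z 1] y2, P2 ⊆ Pal U q) (hK : T z ⊆ P1 ∪ P2 ∪ R) :
    ∀ᶠ t : ℝ in 𝓝 0, t ≠ 0 → T (z + t * (Complex.I * (y1 - z))) ⊆ R := by
  have hy2' : dist y2 z = 1 := by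
    have e : y2 - z = -(y1 - z) := by linear_combination hy2
    rw [dist_eq_norm, e, norm_neg, ← dist_eq_norm]; exact hy1
  have hc : Continuous fun t : ℝ => z + t * (Complex.I * (y1 - z)) := by fun_prop
  have hz : Tendsto (fun t : ℝ => z + t * (Complex.I * (y1 - z))) (𝓝 0) (𝓝 z) := by
    simpa using hc.tendsto 0
  have hneg : Tendsto (fun t : ℝ => -t) (𝓝 0) (𝓝 0) := by
    simpa using (continuous_neg (G := ℝ)).tendsto 0
  filter_upwards [hz.eventually (h.nhd z), h.ray_free hy1 hJ1,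
    hneg.eventually (h.ray_free hy2' hJ2)] with t h1 h2 h3 ht i hi
  have h4 := h.sub _ hi
  rcases hK (h1 hi) with (h5 | h5) | h5
  · exact absurd h4 (h2 ht i h5)
  · have e : z + ((-t : ℝ) : ℂ) * (Complex.I * (y2 - z)) = z + t * (Complex.I * (y1 - z)) := by
      have e2 : y2 - z = -(y1 - z) := by linear_combination hy2
      rw [e2]; push_cast; ring
    have h6 := h3 (neg_ne_zero.2 ht) i h5
    rw [e] at h6
    exact absurd h4 h6
  · exact h5

/-- **Shadow.** -/
theorem shadow (h : Irr U T) {y0 : ℂ} {g : Fin k} (hg : g ∈ Pal U y0) (hgT : g ∉ T y0) :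
    ∃ i ∈ T y0, i ≠ g ∧ ∃ᶠ u in 𝓝 y0, u ∈ U g ∧ u ∈ U i := by
  have h1 : ∃ᶠ u in 𝓝 y0, u ∈ U g := mem_closure_iff_frequently.1 hg
  have h2 : ∃ᶠ u in 𝓝 y0, ∃ i : Fin k, i ∈ T y0 ∧ u ∈ U g ∧ u ∈ U i := by
    refine (h1.and_eventually (h.nhd y0)).mono fun u hu => ?_
    obtain ⟨hu1, hu2⟩ := hu
    obtain ⟨i, hi⟩ := h.ne u
    refine ⟨i, hu2 hi, hu1, h.off u (fun hX => hX g hu1) i hi⟩
  by_contra hcon
  push Not at hcon
  apply h2
  have h3 : ∀ i : Fin k, ∀ᶠ u in 𝓝 y0, i ∈ T y0 → u ∈ U g → u ∉ U i := by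
    intro i
    by_cases hi : i ∈ T y0
    · have hig : i ≠ g := fun hc => hgT (hc ▸ hi)
      filter_upwards [hcon i hi hig] with u hu _ h4
      exact hu h4
    · exact Eventually.of_forall fun u h4 => absurd h4 hi
  filter_upwards [eventually_all.2 h3] with u hu
  rintro ⟨i, h4, h5, h6⟩
  exact hu i h4 h5 h6

theorem dt360_rot (n v : ℂ) (c d : ℝ) : dt360 (Complex.I * (n * (c + d * Complex.I))) v =
    c * dt360 (Complex.I * n) v - d * dt360 n v := by
  simp [dt360]; ring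

/-- a circle through points near `z` meets the line through `z` near `z` -/
theorem meets_line {z y0 x : ℂ} (hy0 : dist y0 z = 1) (hx : dt360 x (z - y0) ≠ 0) {δ : ℝ}
    (hδ : 0 < δ) : ∀ᶠ u in 𝓝 y0, dist z u ≠ 1 → ∃ t : ℝ, |t| < δ ∧ t ≠ 0 ∧
      dist (z + t * x) u = 1 := by
  -- two points on the line, on the two sides of the circle about `y0`
  have hz1 : (z - y0).re ^ 2 + (z - y0).im ^ 2 = 1 := by
    have h3 : ‖z - y0‖ ^ 2 = 1 := by rw [← dist_eq_norm, dist_comm, hy0]; norm_num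
    rw [Complex.sq_norm, Complex.normSq_apply] at h3
    linarith
  have hsq : ∀ t : ℝ, dist (z + t * x) y0 ^ 2 =
      1 + 2 * t * dt360 x (z - y0) + t ^ 2 * (x.re ^ 2 + x.im ^ 2) := by
    intro t
    rw [dist_eq_norm, Complex.sq_norm, Complex.normSq_apply]
    have hre : (z + t * x - y0).re = (z - y0).re + t * x.re := by simp; ring
    have him : (z + t * x - y0).im = (z - y0).im + t * x.im := by simp; ring
    rw [hre, him, dt360]
    linear_combination hz1
  set m := dt360 x (z - y0) with hm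
  set N := x.re ^ 2 + x.im ^ 2 with hN
  have hN0 : 0 ≤ N := by positivity
  have hma : 0 < |m| := abs_pos.2 hx
  set τ : ℝ := min (δ / 2) (|m| / (N + 1)) with hτ
  have hτ0 : 0 < τ := lt_min (by linarith) (by positivity)
  have hτδ : τ < δ := lt_of_le_of_lt (min_le_left _ _) (by linarith)
  have hτm : τ * (N + 1) ≤ |m| := by
    have : τ ≤ |m| / (N + 1) := min_le_right _ _
    rwa [le_div_iff₀ (by positivity)] at this
  -- signs
  obtain ⟨s, hs, hs1, hs2⟩ : ∃ s : ℝ, |s| = τ ∧ dist (z + s * x) y0 < 1 ∧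
      1 < dist (z + ((-s : ℝ) : ℂ) * x) y0 := by
    have hpos : ∀ s : ℝ, |s| = τ → s * m = -(τ * |m|) → dist (z + s * x) y0 < 1 ∧
        1 < dist (z + ((-s : ℝ) : ℂ) * x) y0 := by
      intro s hs hsm
      have hs2 : s ^ 2 = τ ^ 2 := by rw [← sq_abs, hs]
      constructor
      · have e2 : dist (z + s * x) y0 ^ 2 < 1 := by
          rw [hsq, hs2]
          nlinarith [mul_pos hτ0 hma, mul_le_mul_of_nonneg_left hτm hτ0.le]
        nlinarith [dist_nonneg (x := z + s * x) (y := y0)]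
      · have e2 : 1 < dist (z + ((-s : ℝ) : ℂ) * x) y0 ^ 2 := by
          rw [hsq, neg_sq, hs2]
          nlinarith [mul_pos hτ0 hma, mul_nonneg (sq_nonneg τ) hN0]
        nlinarith [dist_nonneg (x := z + ((-s : ℝ) : ℂ) * x) (y := y0)]
    rcases lt_or_gt_of_ne hx with h1 | h1
    · refine ⟨τ, abs_of_pos hτ0, hpos τ (abs_of_pos hτ0) ?_⟩
      rw [abs_of_neg h1]; ring
    · refine ⟨-τ, by rw [abs_neg, abs_of_pos hτ0], hpos (-τ) (by rw [abs_neg, abs_of_pos hτ0]) ?_⟩
      rw [abs_of_pos h1]; ring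
  have he1 : ∀ᶠ u in 𝓝 y0, dist (z + s * x) u < 1 :=
    (continuous_const.dist continuous_id).continuousAt.eventually_lt continuousAt_const hs1
  have he2 : ∀ᶠ u in 𝓝 y0, 1 < dist (z + ((-s : ℝ) : ℂ) * x) u :=
    continuousAt_const.eventually_lt (continuous_const.dist continuous_id).continuousAt hs2
  filter_upwards [he1, he2] with u hu1 hu2 hzu
  have hc : Continuous fun t : ℝ => dist (z + t * x) u := by fun_prop
  obtain ⟨t, ht1, ht2⟩ : ∃ t ∈ uIcc s (-s), dist (z + t * x) u = 1 := by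
    have := intermediate_value_uIcc (a := s) (b := -s) hc.continuousOn
    exact this (mem_uIcc.2 (Or.inl ⟨hu1.le, hu2.le⟩))
  refine ⟨t, ?_, ?_, ht2⟩
  · have h3 : |t| ≤ |s| := by
      rcases mem_uIcc.1 ht1 with ⟨h4, h5⟩ | ⟨h4, h5⟩
      · rw [abs_le]
        exact ⟨(neg_abs_le s).trans h4, h5.trans (neg_le_abs s)⟩
      · rw [abs_le]
        refine ⟨le_trans ?_ h4, h5.trans (le_abs_self s)⟩
        exact neg_le_neg (le_abs_self s)
    rw [hs] at h3
    linarith
  · rintro rfl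
    apply hzu
    simpa using ht2

/-- **Rule (N).** -/
theorem no_fill (h : Irr U T) {z y0 y1 y2 : ℂ} {g i : Fin k} {P1 P2 : Set (Fin k)}
    (hgz : g ∈ Pal U z) (hy0 : dist y0 z = 1) (hfr : ∃ᶠ u in 𝓝 y0, u ∈ U g ∧ u ∈ U i)
    (hy1 : dist y1 z = 1) (hy2 : y1 + y2 = 2 * z)
    (hJ1 : ∀ᶠ q in 𝓝[sphere z 1] y1, P1 ⊆ Pal U q)
    (hJ2 : ∀ᶠ q in 𝓝[sphere z 1] y2, P2 ⊆ Pal U q) : ¬ T z ⊆ P1 ∪ P2 ∪ {g, i} := by
  intro hK
  -- the non perpendicular case
  have main : ∀ y1 y2 : ℂ, dist y1 z = 1 → y1 + y2 = 2 * z →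
      (∀ᶠ q in 𝓝[sphere z 1] y1, P1 ⊆ Pal U q) → (∀ᶠ q in 𝓝[sphere z 1] y2, P2 ⊆ Pal U q) →
      dt360 (Complex.I * (y1 - z)) (z - y0) ≠ 0 → False := by
    intro y1 y2 hy1 hy2 hJ1 hJ2 hd
    obtain ⟨δ, hδ, hball⟩ := Metric.eventually_nhds_iff.1 (h.line_sub hy1 hy2 hJ1 hJ2 hK)
    obtain ⟨u, ⟨hug, hui⟩, hu⟩ := (hfr.and_eventually (meets_line hy0 hd hδ)).exists
    have hzu : dist z u ≠ 1 := fun h1 => h.mx.notMem' hug (by rw [dist_comm]; exact h1) hgz
    obtain ⟨t, ht, ht0, htu⟩ := hu hzu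
    have h1 := hball (by rw [Real.dist_eq, sub_zero]; exact ht) ht0
    obtain ⟨j, hj⟩ := h.ne (z + t * (Complex.I * (y1 - z)))
    have hut : dist u (z + t * (Complex.I * (y1 - z))) = 1 := by rw [dist_comm]; exact htu
    rcases h1 hj with h2 | h2
    · exact h.mx.notMem' hug hut (h.sub _ (h2 ▸ hj))
    · have h3 : j = i := h2
      exact h.mx.notMem' hui hut (h.sub _ (h3 ▸ hj))
  by_cases hd : dt360 (Complex.I * (y1 - z)) (z - y0) = 0
  · set n : ℂ := y1 - z with hn
    have hn1 : ‖n‖ = 1 := by rw [hn, ← dist_eq_norm]; exact hy1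
    have hnn : dt360 n (z - y0) ≠ 0 := by
      intro h0
      have hz1 : (z - y0).re ^ 2 + (z - y0).im ^ 2 = 1 := by
        have h3 : ‖z - y0‖ ^ 2 = 1 := by rw [← dist_eq_norm, dist_comm, hy0]; norm_num
        rw [Complex.sq_norm, Complex.normSq_apply] at h3
        linarith
      have ha : n.re ^ 2 + n.im ^ 2 = 1 := by
        have h3 : ‖n‖ ^ 2 = 1 := by rw [hn1]; norm_num
        rw [Complex.sq_norm, Complex.normSq_apply] at h3
        linarith
      have e1 : dt360 (Complex.I * n) (z - y0) = -n.im * (z - y0).re + n.re * (z - y0).im := by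
        simp [dt360]
      rw [e1] at hd
      rw [dt360] at h0
      have : (n.re ^ 2 + n.im ^ 2) * ((z - y0).re ^ 2 + (z - y0).im ^ 2) = 0 := by
        have e2 : (n.re ^ 2 + n.im ^ 2) * ((z - y0).re ^ 2 + (z - y0).im ^ 2) =
          (n.re * (z - y0).re + n.im * (z - y0).im) ^ 2 +
            (-n.im * (z - y0).re + n.re * (z - y0).im) ^ 2 := by ring
        rw [e2, h0, hd]; ring
      rw [ha, hz1] at this
      norm_num at this
    -- rotate
    let r : ℝ → ℂ := fun s => n * ((Real.cos s : ℝ) + (Real.sin s : ℝ) * Complex.I)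
    have hr : Continuous r := by
      simp only [r]
      fun_prop
    have hrn : ∀ s, ‖r s‖ = 1 := by
      intro s
      simp only [r]
      rw [norm_mul, hn1, one_mul, Complex.norm_add_mul_I, Real.cos_sq_add_sin_sq, Real.sqrt_one]
    have hr0 : r 0 = n := by simp [r]
    have t1 : Tendsto (fun s => z + r s) (𝓝[≠] 0) (𝓝[sphere z 1] y1) := by
      refine tendsto_nhdsWithin_iff.2 ⟨?_, Eventually.of_forall fun s => ?_⟩
      · have hc : Continuous fun s => z + r s := continuous_const.add hr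
        have h1 := (hc.tendsto 0).mono_left (nhdsWithin_le_nhds (s := {(0 : ℝ)}ᶜ))
        have e : z + r 0 = y1 := by rw [hr0, hn]; ring
        rwa [e] at h1
      · rw [mem_sphere, dist_eq_norm, add_sub_cancel_left]; exact hrn s
    have t2 : Tendsto (fun s => z - r s) (𝓝[≠] 0) (𝓝[sphere z 1] y2) := by
      refine tendsto_nhdsWithin_iff.2 ⟨?_, Eventually.of_forall fun s => ?_⟩
      · have hc : Continuous fun s => z - r s := continuous_const.sub hr
        have h1 := (hc.tendsto 0).mono_left (nhdsWithin_le_nhds (s := {(0 : ℝ)}ᶜ))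
        have e : z - r 0 = y2 := by rw [hr0, hn]; linear_combination -hy2
        rwa [e] at h1
      · rw [mem_sphere, dist_eq_norm]
        have e : z - r s - z = -r s := by ring
        rw [e, norm_neg]; exact hrn s
    have hsin : ∀ᶠ s : ℝ in 𝓝[≠] 0, Real.sin s ≠ 0 := by
      have h1 : ∀ᶠ s : ℝ in 𝓝[≠] 0, s ∈ Ioo (-Real.pi) Real.pi :=
        mem_nhdsWithin_of_mem_nhds (Ioo_mem_nhds (by linarith [Real.pi_pos]) Real.pi_pos)
      filter_upwards [h1, self_mem_nhdsWithin] with s hs hs0 hsin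
      exact hs0 ((Real.sin_eq_zero_iff_of_lt_of_lt hs.1 hs.2).1 hsin)
    obtain ⟨s, hs1, hs2, hs3⟩ := ((t1.eventually (eventually_eventually_nhdsWithin.2 hJ1)).and
      ((t2.eventually (eventually_eventually_nhdsWithin.2 hJ2)).and hsin)).exists
    refine main (z + r s) (z - r s) ?_ (by ring) hs1 hs2 ?_
    · rw [dist_eq_norm, add_sub_cancel_left]; exact hrn s
    · rw [add_sub_cancel_left]
      simp only [r]
      rw [dt360_rot, hd, mul_zero, zero_sub]
      exact neg_ne_zero.2 (mul_ne_zero hs3 hnn)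
  · exact main y1 y2 hy1 hy2 hJ1 hJ2 hd

end Irr

end Vale.Agent.P032.Six
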