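import Vale.Agent.P032.S5.H360.Degree

/-!
# P032: solid lines

`Irr.solid` : if the letters at two antipodal points of the unit circle about `z` and the pair
`{p, p'}` exhaust `T z`, and `{p, p'}` is the palette of some point of the circle, then both nappes
perpendicular to the two points are solid, of colour `p` or `p'`.
`Irr.solid_sign` : all solid rays of colour `p` are on the same side of the line perpendicular to
`y - z`, for every `y` on the circle with `p ∈ T y`.
`Irr.tau_line`, `Irr.tau_sign` : the two nappes have different colours; two oriented lines are on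
the same side of the line perpendicular to `y - z` if `T y` meets `{p, p'}`.
-/

open Set Filter Topology Metric

noncomputable section

namespace Vale.Agent.P032.Six

variable {k : ℕ} {U : Fin k → Set ℂ} {T : ℂ → Set (Fin k)}

/-- scalar product -/
def dt360 (a b : ℂ) : ℝ := a.re * b.re + a.im * b.im

theorem dt360_neg (a b : ℂ) : dt360 (-a) b = -dt360 a b := by
  simp [dt360]; ring

/-- the point of the unit circle (about the origin) at distance one from `t (I + r) n` near
`s n` -/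
def slv (s : ℝ) (n : ℂ) (t r : ℝ) : ℂ :=
  n * (((t * r / 2 + s * Real.sqrt (1 / (1 + r ^ 2) - t ^ 2 / 4) : ℝ) : ℂ) +
    ((t / 2 - s * Real.sqrt (1 / (1 + r ^ 2) - t ^ 2 / 4) * r : ℝ) : ℂ) * Complex.I)

theorem slv_zero (s : ℝ) (n : ℂ) : slv s n 0 0 = s * n := by
  simp [slv]; ring

theorem continuous_slv (s : ℝ) (n : ℂ) : Continuous fun a : ℝ × ℝ => slv s n a.1 a.2 := by
  unfold slv
  have h1 : ∀ a : ℝ × ℝ, (1 + a.2 ^ 2 : ℝ) ≠ 0 := fun a => by positivity
  have h2 : Continuous fun a : ℝ × ℝ => Real.sqrt (1 / (1 + a.2 ^ 2) - a.1 ^ 2 / 4) := by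
    refine Real.continuous_sqrt.comp (Continuous.sub ?_ (by fun_prop))
    exact continuous_const.div (by fun_prop) h1
  refine continuous_const.mul (Continuous.add ?_ (Continuous.mul ?_ continuous_const))
  · refine Complex.continuous_ofReal.comp ?_
    exact Continuous.add (by fun_prop) (continuous_const.mul h2)
  · refine Complex.continuous_ofReal.comp ?_
    exact Continuous.sub (by fun_prop) ((continuous_const.mul h2).mul continuous_snd)

theorem norm_slv {s : ℝ} (hs : s ^ 2 = 1) {n : ℂ} (hn : ‖n‖ = 1) {t r : ℝ}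
    (h : t ^ 2 / 4 ≤ 1 / (1 + r ^ 2)) : ‖slv s n t r‖ = 1 := by
  unfold slv
  rw [norm_mul, hn, one_mul, Complex.norm_add_mul_I]
  have h0 : Real.sqrt (1 / (1 + r ^ 2) - t ^ 2 / 4) ^ 2 = 1 / (1 + r ^ 2) - t ^ 2 / 4 :=
    Real.sq_sqrt (by linarith)
  set c := Real.sqrt (1 / (1 + r ^ 2) - t ^ 2 / 4) with hc
  have h1 : (1 + r ^ 2 : ℝ) ≠ 0 := by positivity
  have h2 : c ^ 2 * (1 + r ^ 2) = 1 - t ^ 2 / 4 * (1 + r ^ 2) := by
    rw [h0]; field_simp
  have h3 : (t * r / 2 + s * c) ^ 2 + (t / 2 - s * c * r) ^ 2 = 1 := by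
    have : (t * r / 2 + s * c) ^ 2 + (t / 2 - s * c * r) ^ 2 =
      t ^ 2 / 4 * (1 + r ^ 2) + s ^ 2 * (c ^ 2 * (1 + r ^ 2)) := by ring
    rw [this, hs, h2]; ring
  rw [h3, Real.sqrt_one]

theorem norm_slv_sub {s : ℝ} (hs : s ^ 2 = 1) {n : ℂ} (hn : ‖n‖ = 1) {t r : ℝ}
    (h : t ^ 2 / 4 ≤ 1 / (1 + r ^ 2)) : ‖(t : ℂ) * ((Complex.I + r) * n) - slv s n t r‖ = 1 := by
  have e : (t : ℂ) * ((Complex.I + r) * n) - slv s n t r = slv (-s) n t r := by
    unfold slv
    push_cast
    ring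
  rw [e]
  exact norm_slv (by rw [neg_sq]; exact hs) hn h

namespace Irr

/-- **Solid nappes.** -/
theorem solid (h : Irr U T) {z y1 y2 q0 : ℂ} {p p' : Fin k} {P1 P2 : Set (Fin k)}
    (hy1 : dist y1 z = 1) (hy2 : y1 + y2 = 2 * z)
    (hJ1 : ∀ᶠ q in 𝓝[sphere z 1] y1, P1 ⊆ Pal U q)
    (hJ2 : ∀ᶠ q in 𝓝[sphere z 1] y2, P2 ⊆ Pal U q)
    (hK : T z ⊆ P1 ∪ P2 ∪ {p, p'}) (hq0 : dist q0 z = 1) (hT0 : T q0 = {p, p'}) :
    ∃ δ > 0, ∃ c1 c2 : Fin k, (c1 = p ∨ c1 = p') ∧ (c2 = p ∨ c2 = p') ∧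
      (∀ t r : ℝ, 0 < t → t < δ → |r| < δ →
        T (z + t * ((Complex.I + r) * (y1 - z))) = {c1}) ∧
      ∀ t r : ℝ, -δ < t → t < 0 → |r| < δ →
        T (z + t * ((Complex.I + r) * (y1 - z))) = {c2} := by
  set n : ℂ := y1 - z with hn
  have hn1 : ‖n‖ = 1 := by rw [hn, ← dist_eq_norm]; exact hy1
  have hy2' : y2 = z + ((-1 : ℝ) : ℂ) * n := by
    rw [hn]; push_cast; linear_combination hy2
  have hy1' : y1 = z + ((1 : ℝ) : ℂ) * n := by rw [hn]; push_cast; ring
  let f : ℝ × ℝ → ℂ := fun a => z + a.1 * ((Complex.I + a.2) * n)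
  have hf : Continuous f := by
    simp only [f]
    fun_prop
  have hf0 : f (0, 0) = z := by simp [f]
  have tf : Tendsto f (𝓝 (0, 0)) (𝓝 z) := by
    have := hf.tendsto (0, 0)
    rwa [hf0] at this
  have tg : ∀ s : ℝ, Tendsto (fun a : ℝ × ℝ => z + slv s n a.1 a.2) (𝓝 (0, 0))
      (𝓝 (z + s * n)) := by
    intro s
    have hc : Continuous fun a : ℝ × ℝ => z + slv s n a.1 a.2 :=
      continuous_const.add (continuous_slv s n)
    have := hc.tendsto (0, 0)
    simp only [slv_zero] at this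
    exact this
  -- the small region
  have hreg : ∀ᶠ a : ℝ × ℝ in 𝓝 (0, 0), a.1 ^ 2 / 4 ≤ 1 / (1 + a.2 ^ 2) := by
    have h1 : Continuous fun a : ℝ × ℝ => a.1 ^ 2 / 4 := by fun_prop
    have h2 : Continuous fun a : ℝ × ℝ => 1 / (1 + a.2 ^ 2) :=
      continuous_const.div (by fun_prop) fun a => by positivity
    have h3 := h1.tendsto (0, 0)
    have h4 := h2.tendsto (0, 0)
    have := h3.eventually_lt h4 (by norm_num)
    exact this.mono fun a ha => ha.le
  have hfar : ∀ᶠ a : ℝ × ℝ in 𝓝 (0, 0), dist (f a) z < 1 := by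
    have := tf.eventually (ball_mem_nhds z one_pos)
    exact this
  -- points of the nappes have none of the colours of `P`
  have key : ∀ (s : ℝ) (P : Set (Fin k)), s ^ 2 = 1 →
      (∀ᶠ q in 𝓝[sphere z 1] (z + s * n), P ⊆ Pal U q) →
      ∀ᶠ a : ℝ × ℝ in 𝓝 (0, 0), a.1 ≠ 0 → ∀ i ∈ P, i ∉ Pal U (f a) := by
    intro s P hs hJ
    have hJ' := eventually_eventually_nhdsWithin.2 hJ
    have tg' : Tendsto (fun a : ℝ × ℝ => z + slv s n a.1 a.2) (𝓝 (0, 0))
        (𝓝[sphere z 1] (z + s * n)) := by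
      refine tendsto_nhdsWithin_iff.2 ⟨tg s, ?_⟩
      filter_upwards [hreg] with a ha
      rw [mem_sphere, dist_eq_norm, add_sub_cancel_left]
      exact norm_slv hs hn1 ha
    filter_upwards [hreg, hfar, tg'.eventually hJ'] with a h1 h2 h3 ha i hi
    have hfz : f a ≠ z := by
      intro hcon
      have h4 : (a.1 : ℂ) * ((Complex.I + a.2) * n) = 0 := by
        have : f a - z = 0 := by rw [hcon]; ring
        simpa [f] using this
      have hn0 : n ≠ 0 := by
        intro h0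
        rw [h0, norm_zero] at hn1
        exact zero_ne_one hn1
      have hI : Complex.I + (a.2 : ℂ) ≠ 0 := by
        intro h0
        have := congrArg Complex.im h0
        simp at this
      rcases mul_eq_zero.1 h4 with h5 | h5
      · exact ha (by exact_mod_cast h5)
      · rcases mul_eq_zero.1 h5 with h6 | h6
        · exact hI h6
        · exact hn0 h6
    refine h.mx.sweep_notMem (z := z) (q := z + slv s n a.1 a.2) (w := f a) ?_ h3 ?_
      (Ne.symm hfz) ?_ hi
    · rw [dist_eq_norm, add_sub_cancel_left]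
      exact norm_slv hs hn1 h1
    · rw [dist_eq_norm]
      have e : f a - (z + slv s n a.1 a.2) =
          (a.1 : ℂ) * ((Complex.I + a.2) * n) - slv s n a.1 a.2 := by
        simp only [f]; ring
      rw [e]
      exact norm_slv_sub hs hn1 h1
    · intro h5
      have h6 : f a - z = 2 * slv s n a.1 a.2 := by linear_combination h5
      have h7 : dist (f a) z = 2 := by
        rw [dist_eq_norm, h6, norm_mul, norm_slv hs hn1 h1]; simp
      linarith
  have hgood : ∀ᶠ a : ℝ × ℝ in 𝓝 (0, 0), a.1 ≠ 0 → T (f a) = {p} ∨ T (f a) = {p'} := by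
    rw [hy1'] at hJ1
    rw [hy2'] at hJ2
    filter_upwards [key 1 P1 (by norm_num) hJ1, key (-1) P2 (by norm_num) hJ2,
      tf.eventually (h.nhd z), tf.eventually (h.no_layer hq0)] with a h1 h2 h3 h4 ha
    have hsub : T (f a) ⊆ {p, p'} := by
      intro i hi
      have h5 := h.sub _ hi
      rcases hK (h3 hi) with (h6 | h6) | h6
      · exact absurd h5 (h1 ha i h6)
      · exact absurd h5 (h2 ha i h6)
      · exact h6
    have hne : ¬ ({p, p'} : Set (Fin k)) ⊆ T (f a) := by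
      intro h5
      have h6 := h4 (by rw [hT0]; exact h5)
      have h7 := Set.ncard_le_ncard hsub (Set.toFinite _)
      have h8 := Set.ncard_insert_le p ({p'} : Set (Fin k))
      rw [Set.ncard_singleton] at h8
      omega
    obtain ⟨i, hi⟩ := h.ne (f a)
    by_cases hpT : p ∈ T (f a)
    · left
      refine Subset.antisymm (fun m hm => ?_) (by rintro m rfl; exact hpT)
      rcases hsub hm with h5 | h5
      · exact h5
      · exact absurd (by rintro m' (rfl | rfl) <;> [exact hpT; exact h5 ▸ hm]) hne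
    · right
      refine Subset.antisymm (fun m hm => ?_) ?_
      · rcases hsub hm with h5 | h5
        · exact absurd (h5 ▸ hm) hpT
        · exact h5
      · rintro m rfl
        rcases hsub hi with h5 | h5
        · exact absurd (h5 ▸ hi) hpT
        · exact h5 ▸ hi
  obtain ⟨δ, hδ, hball⟩ := Metric.eventually_nhds_iff.1 hgood
  have hgood' : ∀ t r : ℝ, |t| < δ → |r| < δ → t ≠ 0 →
      T (f (t, r)) = {p} ∨ T (f (t, r)) = {p'} := by
    intro t r ht hr ht0
    refine hball ?_ ht0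
    rw [Prod.dist_eq]
    simpa using ⟨ht, hr⟩
  -- connectedness
  have hconn : ∀ I : Set ℝ, IsPreconnected I → (∀ t ∈ I, |t| < δ ∧ t ≠ 0) →
      ∃ c : Fin k, (c = p ∨ c = p') ∧ ∀ t ∈ I, ∀ r, |r| < δ → T (f (t, r)) = {c} := by
    intro I hI hIt
    by_cases hpp : p = p'
    · refine ⟨p, Or.inl rfl, fun t ht r hr => ?_⟩
      rcases hgood' t r (hIt t ht).1 hr (hIt t ht).2 with h1 | h1
      · exact h1
      · rw [h1, hpp]
    have hR : IsPreconnected (I ×ˢ Ioo (-δ) δ) := hI.prod isPreconnected_Ioo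
    have hgR : ∀ a ∈ I ×ˢ Ioo (-δ) δ, T (f a) = {p} ∨ T (f a) = {p'} := by
      rintro ⟨t, r⟩ ⟨ht, hr⟩
      exact hgood' t r (hIt t ht).1 (abs_lt.2 hr) (hIt t ht).2
    by_cases hall : ∃ a ∈ I ×ˢ Ioo (-δ) δ, p ∈ T (f a)
    · refine ⟨p, Or.inl rfl, fun t ht r hr => ?_⟩
      rcases hgood' t r (hIt t ht).1 hr (hIt t ht).2 with h1 | h1
      · exact h1
      · exfalso
        obtain ⟨a, haR, ha⟩ := hall
        obtain ⟨b, hbR, hb1, hb2⟩ := isPreconnected_closed_iff.1 hR {a | p ∈ T (f a)}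
          {a | p' ∈ T (f a)} ((h.closed p).preimage hf) ((h.closed p').preimage hf)
          (fun a ha => by
            rcases hgR a ha with h2 | h2
            · left; show p ∈ T (f a); rw [h2]; rfl
            · right; show p' ∈ T (f a); rw [h2]; rfl)
          ⟨a, haR, ha⟩ ⟨(t, r), ⟨ht, abs_lt.1 hr⟩, by show p' ∈ T (f (t, r)); rw [h1]; rfl⟩
        have hb1' : p ∈ T (f b) := hb1
        have hb2' : p' ∈ T (f b) := hb2
        rcases hgR b hbR with h2 | h2
        · rw [h2] at hb2'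
          exact hpp hb2'.symm
        · rw [h2] at hb1'
          exact hpp hb1'
    · refine ⟨p', Or.inr rfl, fun t ht r hr => ?_⟩
      rcases hgood' t r (hIt t ht).1 hr (hIt t ht).2 with h1 | h1
      · exact absurd ⟨(t, r), ⟨ht, abs_lt.1 hr⟩, by rw [h1]; rfl⟩ hall
      · exact h1
  obtain ⟨c1, hc1, h1⟩ := hconn (Ioo 0 δ) isPreconnected_Ioo fun t ht =>
    ⟨by rw [abs_of_pos ht.1]; exact ht.2, ht.1.ne'⟩
  obtain ⟨c2, hc2, h2⟩ := hconn (Ioo (-δ) 0) isPreconnected_Ioo fun t ht =>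
    ⟨by rw [abs_of_neg ht.2]; linarith [ht.1], ht.2.ne⟩
  exact ⟨δ, hδ, c1, c2, hc1, hc2, fun t r ht0 ht hr => h1 t ⟨ht0, ht⟩ r hr,
    fun t r ht ht0 hr => h2 t ⟨ht, ht0⟩ r hr⟩

/-- outside -/
theorem solid_out (h : Irr U T) {z y x : ℂ} {p : Fin k} {δ : ℝ} (hδ : 0 < δ)
    (h1 : ∀ t : ℝ, 0 < t → t < δ → T (z + t * x) = {p}) (hy : dist y z = 1)
    (hs : 0 < dt360 x (y - z)) : ∀ᶠ v in 𝓝 y, 1 < dist v z → p ∉ Pal U v := by
  set m := dt360 x (y - z) with hm
  set N := x.re ^ 2 + x.im ^ 2 with hN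
  have hN0 : 0 ≤ N := by positivity
  set t0 : ℝ := min (δ / 2) (m / (N + 1)) with ht0
  have ht0pos : 0 < t0 := lt_min (by linarith) (by positivity)
  have ht0δ : t0 < δ := lt_of_le_of_lt (min_le_left _ _) (by linarith)
  have ht0m : t0 * (N + 1) ≤ m := by
    have : t0 ≤ m / (N + 1) := min_le_right _ _
    rwa [le_div_iff₀ (by positivity)] at this
  have hlt : dist y (z + t0 * x) < 1 := by
    have e1 : dist y (z + t0 * x) ^ 2 = 1 - 2 * t0 * m + t0 ^ 2 * N := by
      have hy' : (y - z).re ^ 2 + (y - z).im ^ 2 = 1 := by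
        have h3 : ‖y - z‖ ^ 2 = 1 := by rw [← dist_eq_norm, hy]; norm_num
        rw [Complex.sq_norm, Complex.normSq_apply] at h3
        linarith
      rw [dist_eq_norm, Complex.sq_norm, Complex.normSq_apply]
      have hre : (y - (z + t0 * x)).re = (y - z).re - t0 * x.re := by simp; ring
      have him : (y - (z + t0 * x)).im = (y - z).im - t0 * x.im := by simp; ring
      rw [hre, him, hm, hN, dt360]
      linear_combination hy'
    have e2 : dist y (z + t0 * x) ^ 2 < 1 := by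
      rw [e1]
      nlinarith [mul_pos ht0pos hs, mul_nonneg ht0pos.le hN0, mul_le_mul_of_nonneg_left ht0m ht0pos.le]
    nlinarith [dist_nonneg (x := y) (y := z + t0 * x)]
  have hev : ∀ᶠ v in 𝓝 y, dist v (z + t0 * x) < 1 :=
    (continuous_id.dist continuous_const).continuousAt.eventually_lt continuousAt_const hlt
  filter_upwards [hev] with v hv hvz
  have hcont : ContinuousOn (fun t : ℝ => dist v (z + t * x)) (Icc 0 t0) := by
    refine Continuous.continuousOn ?_
    fun_prop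
  obtain ⟨t, ht, hte⟩ := intermediate_value_Icc' ht0pos.le hcont
    (show (1 : ℝ) ∈ Icc (dist v (z + (t0 : ℂ) * x)) (dist v (z + ((0 : ℝ) : ℂ) * x)) from
      ⟨hv.le, by simpa using hvz.le⟩)
  have ht' : 0 < t := by
    rcases ht.1.lt_or_eq with h3 | h3
    · exact h3
    · exfalso
      rw [← h3] at hte
      simp at hte
      linarith
  have hU := h.mem_of_single (x := z + t * x) (i := p) (by rw [h1 t ht' (lt_of_le_of_lt ht.2 ht0δ)])
  exact h.mx.notMem' hU (by rw [dist_comm]; exact hte)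

/-- inside -/
theorem solid_in (h : Irr U T) {z y x : ℂ} {p : Fin k} {δ : ℝ} (hδ : 0 < δ)
    (h1 : ∀ t : ℝ, 0 < t → t < δ → T (z + t * x) = {p}) (hy : dist y z = 1)
    (hs : dt360 x (y - z) < 0) : ∀ᶠ v in 𝓝 y, dist v z < 1 → p ∉ Pal U v := by
  set m := dt360 x (y - z) with hm
  set t0 : ℝ := δ / 2 with ht0
  have ht0pos : 0 < t0 := by linarith
  have ht0δ : t0 < δ := by linarith
  have hlt : 1 < dist y (z + t0 * x) := by
    have e1 : dist y (z + t0 * x) ^ 2 = 1 - 2 * t0 * m + t0 ^ 2 * (x.re ^ 2 + x.im ^ 2) := by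
      have hy' : (y - z).re ^ 2 + (y - z).im ^ 2 = 1 := by
        have h3 : ‖y - z‖ ^ 2 = 1 := by rw [← dist_eq_norm, hy]; norm_num
        rw [Complex.sq_norm, Complex.normSq_apply] at h3
        linarith
      rw [dist_eq_norm, Complex.sq_norm, Complex.normSq_apply]
      have hre : (y - (z + t0 * x)).re = (y - z).re - t0 * x.re := by simp; ring
      have him : (y - (z + t0 * x)).im = (y - z).im - t0 * x.im := by simp; ring
      rw [hre, him, hm, dt360]
      linear_combination hy'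
    have e2 : 1 < dist y (z + t0 * x) ^ 2 := by
      rw [e1]
      nlinarith [mul_pos ht0pos (neg_pos.2 hs), mul_nonneg (sq_nonneg t0)
        (add_nonneg (sq_nonneg x.re) (sq_nonneg x.im))]
    nlinarith [dist_nonneg (x := y) (y := z + t0 * x)]
  have hev : ∀ᶠ v in 𝓝 y, 1 < dist v (z + t0 * x) :=
    continuousAt_const.eventually_lt (continuous_id.dist continuous_const).continuousAt hlt
  filter_upwards [hev] with v hv hvz
  have hcont : ContinuousOn (fun t : ℝ => dist v (z + t * x)) (Icc 0 t0) := by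
    refine Continuous.continuousOn ?_
    fun_prop
  obtain ⟨t, ht, hte⟩ := intermediate_value_Icc ht0pos.le hcont
    (show (1 : ℝ) ∈ Icc (dist v (z + ((0 : ℝ) : ℂ) * x)) (dist v (z + (t0 : ℂ) * x)) from
      ⟨by simpa using hvz.le, hv.le⟩)
  have ht' : 0 < t := by
    rcases ht.1.lt_or_eq with h3 | h3
    · exact h3
    · exfalso
      rw [← h3] at hte
      simp at hte
      linarith
  have hU := h.mem_of_single (x := z + t * x) (i := p) (by rw [h1 t ht' (lt_of_le_of_lt ht.2 ht0δ)])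
  exact h.mx.notMem' hU (by rw [dist_comm]; exact hte)

/-- **Sign rule.** -/
theorem solid_sign (h : Irr U T) {z y x1 x2 : ℂ} {p : Fin k} {δ : ℝ} (hδ : 0 < δ)
    (h1 : ∀ t : ℝ, 0 < t → t < δ → T (z + t * x1) = {p})
    (h2 : ∀ t : ℝ, 0 < t → t < δ → T (z + t * x2) = {p}) (hy : dist y z = 1) (hp : p ∈ T y)
    (hs1 : 0 < dt360 x1 (y - z)) (hs2 : dt360 x2 (y - z) < 0) : False := by
  obtain ⟨w, hTw, hw1, hw2⟩ := ((h.pure y p hp).and_eventually
    ((h.solid_out hδ h1 hy hs1).eventually_nhds.and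
      (h.solid_in hδ h2 hy hs2).eventually_nhds)).exists
  have hwU : w ∈ U p := h.mem_of_single (by rw [hTw])
  have hev : ∀ᶠ v in 𝓝 w, dist v z = 1 := by
    filter_upwards [hw1, hw2, (h.mx.isOpen p).mem_nhds hwU] with v hv1 hv2 hv3
    rcases lt_trichotomy (dist v z) 1 with h3 | h3 | h3
    · exact absurd (subset_closure hv3) (hv2 h3)
    · exact h3
    · exact absurd (subset_closure hv3) (hv1 h3)
  have hwz : dist w z = 1 := hev.self_of_nhds
  have ht : Tendsto (fun s : ℝ => z + ((1 + s : ℝ) : ℂ) * (w - z)) (𝓝[>] 0) (𝓝 w) := by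
    have hc : Continuous fun s : ℝ => z + ((1 + s : ℝ) : ℂ) * (w - z) := by fun_prop
    have := (hc.tendsto 0).mono_left (nhdsWithin_le_nhds (s := Ioi (0 : ℝ)))
    simpa using this
  obtain ⟨s, hs, hs0⟩ := ((ht.eventually hev).and self_mem_nhdsWithin).exists
  have hs0' : (0 : ℝ) < s := hs0
  rw [dist_eq_norm, add_sub_cancel_left, norm_mul, ← dist_eq_norm, hwz, mul_one,
    Complex.norm_real, Real.norm_of_nonneg (by linarith)] at hs
  linarith

/-- the line in direction `x` at `z` is solid: colour `p` towards `x`, colour `p'` away -/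
def TauLine (T : ℂ → Set (Fin k)) (z x : ℂ) (p p' : Fin k) : Prop :=
  ∃ δ > 0, (∀ t : ℝ, 0 < t → t < δ → T (z + t * x) = {p}) ∧
    ∀ t : ℝ, 0 < t → t < δ → T (z + t * (-x)) = {p'}

/-- **The two nappes of a tau line have different colours.** -/
theorem tau_line (h : Irr U T) {z y1 y2 q0 : ℂ} {p p' : Fin k} {P1 P2 : Set (Fin k)}
    (hy1 : dist y1 z = 1) (hy2 : y1 + y2 = 2 * z)
    (hJ1 : ∀ᶠ q in 𝓝[sphere z 1] y1, P1 ⊆ Pal U q)
    (hJ2 : ∀ᶠ q in 𝓝[sphere z 1] y2, P2 ⊆ Pal U q)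
    (hK : T z ⊆ P1 ∪ P2 ∪ {p, p'}) (hq0 : dist q0 z = 1) (hT0 : T q0 = {p, p'})
    (hq1 : q0 ≠ y1) (hq2 : q0 ≠ y2) :
    TauLine T z (Complex.I * (y1 - z)) p p' ∨ TauLine T z (-(Complex.I * (y1 - z))) p p' := by
  obtain ⟨δ, hδ, c1, c2, hc1, hc2, h1, h2⟩ := h.solid hy1 hy2 hJ1 hJ2 hK hq0 hT0
  set x : ℂ := Complex.I * (y1 - z) with hx
  have r1 : ∀ t : ℝ, 0 < t → t < δ → T (z + t * x) = {c1} := by
    intro t ht ht'
    have := h1 t 0 ht ht' (by simpa using hδ)
    simpa [hx] using this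
  have r2 : ∀ t : ℝ, 0 < t → t < δ → T (z + t * (-x)) = {c2} := by
    intro t ht ht'
    have := h2 (-t) 0 (by linarith) (by linarith) (by simpa using hδ)
    have e : z + ((-t : ℝ) : ℂ) * ((Complex.I + ((0 : ℝ) : ℂ)) * (y1 - z)) = z + t * (-x) := by
      rw [hx]; push_cast; ring
    rwa [e] at this
  -- the point `q0` is not perpendicular
  have hd : dt360 x (q0 - z) ≠ 0 := by
    intro hd0
    have ha : (y1 - z).re ^ 2 + (y1 - z).im ^ 2 = 1 := by
      have h3 : ‖y1 - z‖ ^ 2 = 1 := by rw [← dist_eq_norm, hy1]; norm_num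
      rw [Complex.sq_norm, Complex.normSq_apply] at h3
      linarith
    have hb : (q0 - z).re ^ 2 + (q0 - z).im ^ 2 = 1 := by
      have h3 : ‖q0 - z‖ ^ 2 = 1 := by rw [← dist_eq_norm, hq0]; norm_num
      rw [Complex.sq_norm, Complex.normSq_apply] at h3
      linarith
    have hxr : x.re = -(y1 - z).im := by rw [hx]; simp
    have hxi : x.im = (y1 - z).re := by rw [hx]; simp
    rw [dt360, hxr, hxi] at hd0
    set a := (y1 - z).re
    set b := (y1 - z).im
    set c := (q0 - z).re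
    set d := (q0 - z).im
    have hcd : (a * c + b * d) ^ 2 = 1 := by
      have e : (a * c + b * d) ^ 2 = (a ^ 2 + b ^ 2) * (c ^ 2 + d ^ 2) - (-b * c + a * d) ^ 2 := by
        ring
      rw [e, ha, hb, hd0]; ring
    have hz2 : (a * c + b * d - 1) * (a * c + b * d + 1) = 0 := by linear_combination hcd
    rcases mul_eq_zero.1 hz2 with h3 | h3
    · have h4 : (a - c) ^ 2 + (b - d) ^ 2 = 0 := by
        linear_combination ha + hb - 2 * h3
      have h5 : a = c := by nlinarith [sq_nonneg (a - c), sq_nonneg (b - d)]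
      have h6 : b = d := by nlinarith [sq_nonneg (a - c), sq_nonneg (b - d)]
      apply hq1
      have h7 : q0 - z = y1 - z := Complex.ext h5.symm h6.symm
      linear_combination h7
    · have h4 : (a + c) ^ 2 + (b + d) ^ 2 = 0 := by
        linear_combination ha + hb + 2 * h3
      have h5 : c = -a := by nlinarith [sq_nonneg (a + c), sq_nonneg (b + d)]
      have h6 : d = -b := by nlinarith [sq_nonneg (a + c), sq_nonneg (b + d)]
      apply hq2
      have h7 : q0 - z = -(y1 - z) := Complex.ext (by rw [Complex.neg_re]; exact h5)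
        (by rw [Complex.neg_im]; exact h6)
      linear_combination h7 - hy2
  have hnot : ∀ c, c ∈ T q0 → c1 = c → c2 = c → False := by
    intro c hc h3 h4
    rcases lt_or_gt_of_ne hd with h5 | h5
    · exact h.solid_sign hδ (x1 := -x) (x2 := x) (by rw [← h4]; exact r2) (by rw [← h3]; exact r1)
        hq0 hc (by rw [dt360_neg]; linarith) h5
    · exact h.solid_sign hδ (x1 := x) (x2 := -x) (by rw [← h3]; exact r1) (by rw [← h4]; exact r2)
        hq0 hc h5 (by rw [dt360_neg]; linarith)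
  have hpq : p ∈ T q0 := by rw [hT0]; simp
  have hpq' : p' ∈ T q0 := by rw [hT0]; simp
  rcases hc1 with rfl | rfl
  · rcases hc2 with rfl | rfl
    · exact absurd rfl fun h3 => hnot _ hpq h3 rfl
    · exact Or.inl ⟨δ, hδ, r1, r2⟩
  · rcases hc2 with rfl | rfl
    · exact Or.inr ⟨δ, hδ, r2, by simpa using r1⟩
    · exact absurd rfl fun h3 => hnot _ hpq' h3 rfl

/-- **Two oriented tau lines are on the same side of the line perpendicular to `y - z`** if `T y`
meets `{p, p'}`. -/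
theorem tau_sign (h : Irr U T) {z y x1 x2 : ℂ} {p p' : Fin k} (h1 : TauLine T z x1 p p')
    (h2 : TauLine T z x2 p p') (hy : dist y z = 1) (hp : p ∈ T y ∨ p' ∈ T y)
    (hs1 : 0 < dt360 x1 (y - z)) (hs2 : dt360 x2 (y - z) < 0) : False := by
  obtain ⟨δ1, hδ1, a1, b1⟩ := h1
  obtain ⟨δ2, hδ2, a2, b2⟩ := h2
  have hδ : 0 < min δ1 δ2 := lt_min hδ1 hδ2
  have l1 : min δ1 δ2 ≤ δ1 := min_le_left _ _
  have l2 : min δ1 δ2 ≤ δ2 := min_le_right _ _
  rcases hp with hp | hp
  · exact h.solid_sign hδ (fun t ht ht' => a1 t ht (ht'.trans_le l1))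
      (fun t ht ht' => a2 t ht (ht'.trans_le l2)) hy hp hs1 hs2
  · exact h.solid_sign hδ (x1 := -x2) (x2 := -x1) (fun t ht ht' => b2 t ht (ht'.trans_le l2))
      (fun t ht ht' => b1 t ht (ht'.trans_le l1)) hy hp (by rw [dt360_neg]; linarith)
      (by rw [dt360_neg]; linarith)

end Irr

end Vale.Agent.P032.Six
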